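import Vale.Agent.P244.Bridge
import Vale.Agent.P244A.Main
import Vale.Agent.P244B.Main
import Vale.Agent.P244C.Main

open scoped Manifold ContDiff
open Vale.Agent.P244S

/-- A smooth Ricci flow on a closed connected manifold of dimension at least four, on a finite time
interval `[0, T)`, with bounded scalar curvature, which does not extend past `T`. -/
theorem Vale.Agent.Results.P244.NoExtension.result :
    ∃ (n : ℕ) (M : Type) (_ : TopologicalSpace M) (_ : T2Space M) (_ : CompactSpace M)
      (_ : ConnectedSpace M) (_ : ChartedSpace (E n) M) (_ : IsManifold (𝓡 n) ∞ M)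
      (T : ℝ) (g : ℝ → M → Matrix (Fin n) (Fin n) ℝ),
      4 ≤ n ∧ 0 < T ∧ RicciFlow g T ∧ BoundedScal g T ∧ ¬ Extends g T := by
  obtain ⟨n, hn, M, i1, i2, i3, i4, i5, i6, T, g, hT, h1, h2, h3⟩ :=
    Vale.Agent.P244.stepC Vale.Agent.P244A.stepA Vale.Agent.P244B.stepB
  exact ⟨n, M, i1, i2, i3, i4, i5, i6, T, _, hn, hT, Vale.Agent.P244.br_main h1 h2 h3⟩
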